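import Vale.Agent.P243lib.Coplanar

/-!
# P243: Bang's half-area inequality for cylinders whose axes are parallel to a common plane

A cylinder in Euclidean 3-space is given by an orthonormal pair `a, n` (spanning the plane
orthogonal to its axis) and a measurable base `B` in the coordinates of that pair.  A finite
family of cylinders has all its axes parallel to a common plane exactly when the family can be
presented with a common unit vector `n` (the normal of that plane).
-/

namespace Vale.Agent.Results.P243.CoplanarAxes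

open MeasureTheory Set
open scoped ENNReal

/-- Coordinates, with respect to the orthonormal pair `a, n`, of the orthogonal projection of `p`
onto the plane spanned by `a` and `n`. -/
noncomputable def coord (a n : EuclideanSpace ℝ (Fin 3)) (p : EuclideanSpace ℝ (Fin 3)) : ℝ × ℝ :=
  (inner ℝ a p, inner ℝ n p)

/-- The cylinder whose axis is orthogonal to `a` and `n` and whose base, in the coordinates of
the orthonormal pair `a, n`, is `B`. -/
def cyl (a n : EuclideanSpace ℝ (Fin 3)) (B : Set (ℝ × ℝ)) : Set (EuclideanSpace ℝ (Fin 3)) :=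
  {p | coord a n p ∈ B}

/-- The orthogonal projection of `K` onto the plane spanned by `a, n`, in coordinates. -/
def shadow (a n : EuclideanSpace ℝ (Fin 3)) (K : Set (EuclideanSpace ℝ (Fin 3))) : Set (ℝ × ℝ) :=
  coord a n '' K

/-- The smallest area of an orthogonal projection of `K` onto a plane: the infimum, over all
orthonormal pairs `b, c`, of the area of the projection of `K` onto the plane they span. -/
noncomputable def Amin (K : Set (EuclideanSpace ℝ (Fin 3))) : ℝ≥0∞ :=
  ⨅ (b : EuclideanSpace ℝ (Fin 3)) (c : EuclideanSpace ℝ (Fin 3))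
    (_ : ‖b‖ = 1 ∧ ‖c‖ = 1 ∧ inner ℝ b c = 0), volume (shadow b c K)

/-- **Bang's half-area inequality for cylinders with axes parallel to a common plane.**
If a convex body `K` in Euclidean 3-space is covered by finitely many cylinders whose axes are
all orthogonal to the unit vector `n`, then the total base area is at least half of the smallest
area of a projection of `K` along a direction orthogonal to `n`; in particular it is at least
half of the smallest area of a projection of `K` onto a plane. -/
theorem result (K : Set (EuclideanSpace ℝ (Fin 3))) (hKc : IsCompact K) (hKv : Convex ℝ K)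
    (hKi : (interior K).Nonempty)
    (n : EuclideanSpace ℝ (Fin 3)) (hn : ‖n‖ = 1) (m : ℕ)
    (a : Fin m → EuclideanSpace ℝ (Fin 3)) (ha : ∀ i, ‖a i‖ = 1)
    (han : ∀ i, inner ℝ (a i) n = 0)
    (B : Fin m → Set (ℝ × ℝ)) (hB : ∀ i, MeasurableSet (B i))
    (hcov : K ⊆ ⋃ i, cyl (a i) n (B i)) :
    (⨅ (b : EuclideanSpace ℝ (Fin 3)) (_ : ‖b‖ = 1 ∧ inner ℝ b n = 0),
        volume (shadow b n K)) / 2 ≤ ∑ i, volume (B i) ∧
      Amin K / 2 ≤ ∑ i, volume (B i) := by
  have hKne : K.Nonempty := hKi.mono interior_subset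
  have hcov' : ∀ p ∈ K, ∃ i, Vale.Agent.P243lib.proj2 (a i) n p ∈ B i := by
    intro p hp
    obtain ⟨i, hi⟩ := mem_iUnion.1 (hcov hp)
    exact ⟨i, hi⟩
  obtain ⟨p0, hp0⟩ := hKne
  obtain ⟨i0, -⟩ := hcov' p0 hp0
  set I : ℝ≥0∞ := ⨅ (b : EuclideanSpace ℝ (Fin 3)) (_ : ‖b‖ = 1 ∧ inner ℝ b n = 0),
    volume (shadow b n K) with hI
  have hIle : ∀ b : EuclideanSpace ℝ (Fin 3), ‖b‖ = 1 → inner ℝ b n = 0 →
      I ≤ volume (shadow b n K) := by
    intro b hb hbn
    exact iInf_le_of_le b (iInf_le _ ⟨hb, hbn⟩)
  have hcomp : IsCompact (shadow (a i0) n K) := by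
    have hcont : Continuous (coord (a i0) n) := by
      unfold coord
      fun_prop
    exact hKc.image hcont
  have hIfin : I ≠ ⊤ :=
    ((hIle (a i0) (ha i0) (han i0)).trans_lt hcomp.measure_lt_top).ne
  have hAI : ENNReal.ofReal I.toReal = I := ENNReal.ofReal_toReal hIfin
  have hA : ∀ b : EuclideanSpace ℝ (Fin 3), ‖b‖ = 1 → inner ℝ b n = 0 →
      ENNReal.ofReal I.toReal ≤ volume (Vale.Agent.P243lib.proj2 b n '' K) := by
    intro b hb hbn
    rw [hAI]
    exact hIle b hb hbn
  have hcore := Vale.Agent.P243lib.coplanar_core K hKc hKv ⟨p0, hp0⟩ n hn a ha han B hB hcov'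
    I.toReal hA
  have hhalf : I / 2 = ENNReal.ofReal (I.toReal / 2) := by
    rw [ENNReal.ofReal_div_of_pos two_pos, hAI]
    simp
  have h1 : I / 2 ≤ ∑ i, volume (B i) := by
    rw [hhalf]
    exact hcore
  refine ⟨h1, le_trans ?_ h1⟩
  have hle : Amin K ≤ I := by
    refine le_iInf (fun b => le_iInf (fun hb => ?_))
    exact iInf_le_of_le b (iInf_le_of_le n (iInf_le _ ⟨hb.1, hn, hb.2⟩))
  exact ENNReal.div_le_div_right hle 2

end Vale.Agent.Results.P243.CoplanarAxes
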