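import Vale.Agent.P243lib.Slicing

/-!
# P243: Bang's half-area bound for coverings by two cylinders

A cylinder in Euclidean 3-space is given by an orthonormal pair `a, n` (spanning the plane
orthogonal to its axis) and a measurable base `B` in the coordinates of that pair.  Any two
cylinders can be presented with a common unit vector `n` orthogonal to both axes.
-/

namespace Vale.Agent.Results.P243.TwoCylinders

open MeasureTheory Set
open scoped ENNReal

/-- Coordinates, with respect to the orthonormal pair `a, n`, of the orthogonal projection of `p`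
onto the plane spanned by `a` and `n`. -/
noncomputable def coord (a n : EuclideanSpace ℝ (Fin 3)) (p : EuclideanSpace ℝ (Fin 3)) : ℝ × ℝ :=
  (inner ℝ a p, inner ℝ n p)

/-- The cylinder whose axis is orthogonal to `a` and `n` and whose base, in the coordinates of
the orthonormal pair `a, n`, is `B`. -/
def cyl (a n : EuclideanSpace ℝ (Fin 3)) (B : Set (ℝ × ℝ)) : Set (EuclideanSpace ℝ (Fin 3)) :=
  {p | coord a n p ∈ B}

/-- The orthogonal projection of `K` onto the plane spanned by `a, n`, in coordinates. -/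
def shadow (a n : EuclideanSpace ℝ (Fin 3)) (K : Set (EuclideanSpace ℝ (Fin 3))) : Set (ℝ × ℝ) :=
  coord a n '' K

lemma shadow_pos {K : Set (EuclideanSpace ℝ (Fin 3))} (hKi : (interior K).Nonempty)
    {a n : EuclideanSpace ℝ (Fin 3)} (ha : ‖a‖ = 1) (hn : ‖n‖ = 1) (h : inner ℝ a n = 0) :
    0 < volume (shadow a n K) := by
  set L : EuclideanSpace ℝ (Fin 3) →L[ℝ] ℝ × ℝ := (innerSL ℝ a).prod (innerSL ℝ n) with hL
  have hLapp : ∀ p, L p = coord a n p := fun p => rfl
  have hsurj : Function.Surjective L := by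
    rintro ⟨s, t⟩
    refine ⟨s • a + t • n, ?_⟩
    rw [hLapp]
    have h' : inner ℝ n a = 0 := by rw [real_inner_comm]; exact h
    have haa : inner ℝ a a = (1 : ℝ) := by rw [real_inner_self_eq_norm_sq, ha]; norm_num
    have hnn : inner ℝ n n = (1 : ℝ) := by rw [real_inner_self_eq_norm_sq, hn]; norm_num
    simp only [coord, inner_add_right, real_inner_smul_right, h, h', haa, hnn]
    simp
  have hopen : IsOpen (L '' interior K) := L.isOpenMap hsurj _ isOpen_interior
  have hne : (L '' interior K).Nonempty := hKi.image _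
  have hsub : L '' interior K ⊆ shadow a n K := by
    rintro _ ⟨p, hp, rfl⟩
    exact ⟨p, interior_subset hp, rfl⟩
  exact (hopen.measure_pos volume hne).trans_le (measure_mono hsub)

/-- **Bang's half-area bound (in the strong, direction-wise relative form) for two cylinders.**
If a convex body `K` in Euclidean 3-space is covered by two cylinders with bases `B₁`, `B₂`, then
the sum of the base areas, each divided by the area of the orthogonal projection of `K` along the
axis of the same cylinder, is at least `1/2`. -/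
theorem result (K : Set (EuclideanSpace ℝ (Fin 3))) (hKc : IsCompact K) (hKv : Convex ℝ K)
    (hKi : (interior K).Nonempty)
    (a₁ a₂ n : EuclideanSpace ℝ (Fin 3)) (ha₁ : ‖a₁‖ = 1) (ha₂ : ‖a₂‖ = 1) (hn : ‖n‖ = 1)
    (h₁ : inner ℝ a₁ n = 0) (h₂ : inner ℝ a₂ n = 0)
    (B₁ B₂ : Set (ℝ × ℝ)) (hB₁ : MeasurableSet B₁) (hB₂ : MeasurableSet B₂)
    (hcov : K ⊆ cyl a₁ n B₁ ∪ cyl a₂ n B₂) :
    (1 / 2 : ℝ≥0∞) ≤
      volume B₁ / volume (shadow a₁ n K) + volume B₂ / volume (shadow a₂ n K) := by
  set Θ : EuclideanSpace ℝ (Fin 3) → ℝ × ℝ × ℝ :=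
    fun p => (inner ℝ a₂ p, inner ℝ a₁ p, inner ℝ n p) with hΘ
  have hΘc : Continuous Θ := by fun_prop
  have hΘl : IsLinearMap ℝ Θ := by
    refine IsLinearMap.mk (fun x y => ?_) (fun c x => ?_)
    · simp only [hΘ, inner_add_right]; rfl
    · simp only [hΘ, real_inner_smul_right]; rfl
  have hK'c : IsCompact (Θ '' K) := hKc.image hΘc
  have hK'v : Convex ℝ (Θ '' K) := hKv.is_linear_image hΘl
  have e1 : Vale.Agent.P243lib.D1 (Θ '' K) = shadow a₁ n K := by
    simp only [Vale.Agent.P243lib.D1, shadow, Set.image_image]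
    rfl
  have e2 : Vale.Agent.P243lib.D2 (Θ '' K) = shadow a₂ n K := by
    simp only [Vale.Agent.P243lib.D2, shadow, Set.image_image]
    rfl
  have hcov' : ∀ p ∈ Θ '' K, (p.2.1, p.2.2) ∈ B₁ ∨ (p.1, p.2.2) ∈ B₂ := by
    rintro _ ⟨p, hp, rfl⟩
    exact hcov hp
  have hpos1 : 0 < volume (Vale.Agent.P243lib.D1 (Θ '' K)) := by
    rw [e1]; exact shadow_pos hKi ha₁ hn h₁
  have hpos2 : 0 < volume (Vale.Agent.P243lib.D2 (Θ '' K)) := by
    rw [e2]; exact shadow_pos hKi ha₂ hn h₂
  have h := Vale.Agent.P243lib.coord_thm (Θ '' K) hK'c hK'v B₁ B₂ hB₁ hB₂ hcov' hpos1 hpos2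
  rw [e1, e2] at h
  rw [one_div]
  exact h

end Vale.Agent.Results.P243.TwoCylinders
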